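import Mathlib
import Vale.Agent.P073.Defs
import Vale.Agent.P073.Main

open MeasureTheory Set Filter Topology
open Vale.Agent.P073

namespace Vale.Agent.Results.P073.ConvexConstraint

/-- Let `U` be a bounded domain of a Euclidean space `E` (for instance three-space) and `f` a Sobolev homeomorphism of `U` onto itself
(any exponent `1 ≤ p < ∞`) which is the identity outside a compact subset `K` of `U`.  If the weak
derivative of `f` lies almost everywhere in a closed convex set `KK` of matrices containing the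
identity such that `(1 - δ) A + δ I` is invertible for all `A ∈ KK` and `0 < δ ≤ 1`, then `f` is
diffeomorphically approximable in the Sobolev norm. -/
theorem result {E : Type*} [NormedAddCommGroup E] [InnerProductSpace ℝ E]
    [FiniteDimensional ℝ E] [MeasurableSpace E] [BorelSpace E] (p : ℝ) (hp : 1 ≤ p) (U : Set E) (hU : IsBoundedDomain U)
    (f : E → E) (Df : E → E →L[ℝ] E) (hf : IsSobolevHomeo p U U f Df)
    (K : Set E) (hK : IsCompact K) (hKU : K ⊆ U) (hid : ∀ x ∈ U \ K, f x = x)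
    (KK : Set (E →L[ℝ] E)) (hconv : Convex ℝ KK) (hclosed : IsClosed KK)
    (h1 : (1 : E →L[ℝ] E) ∈ KK)
    (hinv : ∀ A ∈ KK, ∀ δ : ℝ, 0 < δ → δ ≤ 1 →
      ((1 - δ) • A + δ • (1 : E →L[ℝ] E)).IsInvertible)
    (hmem : ∀ᵐ x ∂(volume.restrict U), Df x ∈ KK) :
    DiffeoApproximable p U U f Df := by
  have hp0 : 0 < p := by linarith
  have hη : ∀ j : ℕ, ((j : ENNReal) + 1)⁻¹ ≠ 0 := fun j => by simp
  choose F hF1 hF2 hF3 using fun j : ℕ =>
    exists_approximant hp hU.1 hU.2.2 hf.1.1 hf.2 hK hKU hid hconv hclosed h1 hinv hmem (hη j)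
  refine ⟨F, fun j => ⟨hF1 j, hF2 j⟩, ?_⟩
  have hlim0 : Tendsto (fun j : ℕ => ((j : ENNReal) + 1)⁻¹) atTop (𝓝 0) := by
    have h := (tendsto_add_atTop_iff_nat 1).2 ENNReal.tendsto_inv_nat_nhds_zero
    simpa using h
  have hlim1 : Tendsto (fun j : ℕ => (((j : ENNReal) + 1)⁻¹) ^ p) atTop (𝓝 0) := by
    have h := (ENNReal.continuous_rpow_const (y := p)).tendsto 0
    rw [ENNReal.zero_rpow_of_pos hp0] at h
    exact h.comp hlim0
  have hlim2 : Tendsto (fun j : ℕ => (((j : ENNReal) + 1)⁻¹) ^ p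
      + ENNReal.ofReal (frobC E ^ p) * (((j : ENNReal) + 1)⁻¹) ^ p) atTop (𝓝 0) := by
    have h := hlim1.add (ENNReal.Tendsto.const_mul hlim1 (Or.inr ENNReal.ofReal_ne_top)
      (a := ENNReal.ofReal (frobC E ^ p)))
    simpa using h
  exact tendsto_of_tendsto_of_tendsto_of_le_of_le tendsto_const_nhds hlim2
    (fun _ => zero_le) hF3

end Vale.Agent.Results.P073.ConvexConstraint
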