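import Mathlib
import Vale.Agent.P073.Defs
import Vale.Agent.P073.Cone
import Vale.Agent.Results.P073.ConvexConstraint

open MeasureTheory Set Filter Topology
open Vale.Agent.P073

namespace Vale.Agent.Results.P073.MonotoneMaps

/-- Every Sobolev homeomorphism of a bounded domain `U` onto itself which is the identity outside
a compact subset of `U` and whose weak derivative is monotone almost everywhere
(`0 ≤ ⟨Df(x) ξ, ξ⟩` for all `ξ`) is diffeomorphically approximable, for every `1 ≤ p < ∞`. -/
theorem result {E : Type*} [NormedAddCommGroup E] [InnerProductSpace ℝ E]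
    [FiniteDimensional ℝ E] [MeasurableSpace E] [BorelSpace E] (p : ℝ) (hp : 1 ≤ p)
    (U : Set E) (hU : IsBoundedDomain U)
    (f : E → E) (Df : E → E →L[ℝ] E) (hf : IsSobolevHomeo p U U f Df)
    (K : Set E) (hK : IsCompact K) (hKU : K ⊆ U) (hid : ∀ x ∈ U \ K, f x = x)
    (hmono : ∀ᵐ x ∂(volume.restrict U), ∀ ξ : E, 0 ≤ inner ℝ (Df x ξ) ξ) :
    DiffeoApproximable p U U f Df := by
  refine Vale.Agent.Results.P073.ConvexConstraint.result p hp U hU f Df hf K hK hKU hid
    (monoCone E 0) (monoCone_convex 0) (monoCone_closed 0) one_mem_monoCone monoCone_inv ?_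
  filter_upwards [hmono] with x hx ξ
  simpa using hx ξ

end Vale.Agent.Results.P073.MonotoneMaps
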